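import Crest.Agent.R9.Config
import Crest.Prelude.Def_MilnorK

set_option autoImplicit false

namespace Crest.Agent.R9

open Polynomial IntermediateField Crest.NumberTheoryR.MilnorK

section

variable {K : Type*} [Field K] (p : ℕ)

open Classical in
/-- class of a field element (junk `0` at `0`) -/
noncomputable def cl (u : K) : KOne K p :=
  if h : u = 0 then 0 else cls K p (Units.mk0 u h)

variable {p}

lemma cl_mk0 {u : K} (h : u ≠ 0) : cls K p (Units.mk0 u h) = cl p u := by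
  simp [cl, h]

lemma cls_eq_cl (u : Kˣ) : cls K p u = cl p (u : K) := by
  rw [← cl_mk0 u.ne_zero]; simp

lemma cls_mul (u v : Kˣ) : cls K p (u * v) = cls K p u + cls K p v := rfl

lemma cl_mul {u v : K} (hu : u ≠ 0) (hv : v ≠ 0) : cl p (u * v) = cl p u + cl p v := by
  rw [← cl_mk0 hu, ← cl_mk0 hv, ← cl_mk0 (mul_ne_zero hu hv), ← cls_mul]
  congr 1
  ext; simp

lemma eq_zero_of_eq_add_self {A : Type*} [AddCommGroup A] {a : A} (h : a = a + a) : a = 0 := by
  simpa using h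

lemma cl_one : cl p (1 : K) = 0 := by
  have := cl_mul (p := p) (one_ne_zero (α := K)) one_ne_zero
  rw [mul_one] at this
  exact eq_zero_of_eq_add_self this

lemma cl_div {u v : K} (hu : u ≠ 0) (hv : v ≠ 0) : cl p (u / v) = cl p u - cl p v := by
  have h := cl_mul (p := p) (div_ne_zero hu hv) hv
  rw [div_mul_cancel₀ _ hv] at h
  rw [h]; abel

lemma cl_pow {u : K} (hu : u ≠ 0) (n : ℕ) : cl p (u ^ n) = n • cl p u := by
  induction n with
  | zero => simp [cl_one]
  | succ n ih => rw [pow_succ, cl_mul (pow_ne_zero _ hu) hu, ih, succ_nsmul]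

lemma cl_surj (κ : KOne K p) : ∃ u : K, u ≠ 0 ∧ cl p u = κ := by
  obtain ⟨u, rfl⟩ := QuotientAddGroup.mk_surjective κ
  exact ⟨(Additive.toMul u : Kˣ), Units.ne_zero _, by rw [← cls_eq_cl]; rfl⟩

variable [hp : Fact p.Prime] [CharP K p]

lemma cl_eq_zero_iff {u : K} (hu : u ≠ 0) : cl p u = 0 ↔ u ∈ PF K p := by
  rw [← cl_mk0 hu, cls, QuotientAddGroup.eq_zero_iff, mem_PF]
  constructor
  · rintro ⟨a, ha⟩
    refine ⟨((Additive.toMul a : Kˣ) : K), ?_⟩
    have h2 : (Additive.toMul a) ^ p = Units.mk0 u hu := by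
      have := congrArg Additive.toMul ha
      simpa using this
    have := congrArg (fun t : Kˣ => (t : K)) h2
    simpa using this
  · rintro ⟨a, ha⟩
    have ha0 : a ≠ 0 := by
      rintro rfl
      rw [zero_pow hp.out.ne_zero] at ha
      exact hu ha.symm
    refine ⟨Additive.ofMul (Units.mk0 a ha0), ?_⟩
    change p • Additive.ofMul (Units.mk0 a ha0) = _
    rw [← ofMul_pow]
    congr 1
    ext; simp [ha]

lemma cl_eq_iff {u v : K} (hu : u ≠ 0) (hv : v ≠ 0) : cl p u = cl p v ↔ u / v ∈ PF K p := by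
  rw [← cl_eq_zero_iff (div_ne_zero hu hv), cl_div hu hv, sub_eq_zero]

lemma neg_one_mem_PF : (-1 : K) ∈ PF K p := neg_mem (one_mem _)

lemma cl_neg {u : K} (hu : u ≠ 0) : cl p (-u) = cl p u := by
  rw [cl_eq_iff (neg_ne_zero.2 hu) hu, neg_div, div_self hu]
  exact neg_one_mem_PF

lemma lw_eq_of_cl_eq {u v : K} (hu : u ≠ 0) (hv : v ≠ 0) (h : cl p u = cl p v)
    (D : Derivation ℤ K K) : lw u D = lw v D := by
  rw [cl_eq_iff hu hv] at h
  have := (lw_eq_zero_iff (div_ne_zero hu hv) D).2 (deriv_PF D h)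
  rw [lw_div hu hv] at this
  exact sub_eq_zero.1 this

/-- `dlog` paired with a derivation, on classes. -/
noncomputable def dl (D : Derivation ℤ K K) : KOne K p →+ K where
  toFun κ := lw (cl_surj κ).choose D
  map_zero' := by
    have h := (cl_surj (0 : KOne K p)).choose_spec
    rw [lw_eq_of_cl_eq h.1 one_ne_zero (h.2.trans cl_one.symm), lw_one]
  map_add' κ κ' := by
    have h := (cl_surj κ).choose_spec
    have h' := (cl_surj κ').choose_spec
    have h'' := (cl_surj (κ + κ')).choose_spec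
    rw [← lw_mul h.1 h'.1]
    apply lw_eq_of_cl_eq h''.1 (mul_ne_zero h.1 h'.1)
    rw [cl_mul h.1 h'.1, h.2, h'.2, h''.2]

lemma dl_cl {u : K} (hu : u ≠ 0) (D : Derivation ℤ K K) : dl D (cl p u) = lw u D := by
  have h := (cl_surj (cl p u)).choose_spec
  exact lw_eq_of_cl_eq h.1 hu h.2 D

lemma wedge_of_mem_steinberg {u v : K} (hu : u ≠ 0) (hv : v ≠ 0)
    (h : TensorProduct.tmul (ZMod p) (cl p u) (cl p v) ∈ steinberg K p) : Wedge u v := by
  intro D D'
  letI : Algebra (ZMod p) K := ZMod.algebra K p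
  let d1 : KOne K p →ₗ[ZMod p] K := (dl D).toZModLinearMap p
  let d2 : KOne K p →ₗ[ZMod p] K := (dl D').toZModLinearMap p
  let W : TensorProduct (ZMod p) (KOne K p) (KOne K p) →ₗ[ZMod p] K :=
    (LinearMap.mul' (ZMod p) K) ∘ₗ (TensorProduct.map d1 d2) -
      (LinearMap.mul' (ZMod p) K) ∘ₗ (TensorProduct.map d2 d1)
  have hW : ∀ a b : K, a ≠ 0 → b ≠ 0 → W (TensorProduct.tmul (ZMod p) (cl p a) (cl p b)) =
      lw a D * lw b D' - lw a D' * lw b D := by
    intro a b ha hb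
    simp [W, d1, d2, dl_cl ha, dl_cl hb]
  have hle : steinberg K p ≤ LinearMap.ker W := by
    rw [steinberg, Submodule.span_le]
    rintro _ ⟨f, hf, hf1, rfl⟩
    rw [cl_mk0, cl_mk0, SetLike.mem_coe, LinearMap.mem_ker, hW f (1 - f) hf hf1]
    unfold lw
    simp only [map_sub, Derivation.map_one_eq_zero]
    ring
  have := hle h
  rw [LinearMap.mem_ker, hW u v hu hv] at this
  exact sub_eq_zero.1 this

/-- `w` normalises the pair of classes `(ξ, π)` with scalar `c`. -/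
def Norm (ξ π : KOne K p) (c : ZMod p) (w : K) : Prop :=
  w ≠ 0 ∧ w - 1 ≠ 0 ∧ cl p w = c • ξ ∧ cl p (w - 1) = c • π

lemma dl_smul (D : Derivation ℤ K K) (c : ZMod p) (ξ : KOne K p) :
    dl D (c • ξ) = (c.val : K) * dl D ξ := by
  have : c • ξ = c.val • ξ := by
    have := Nat.cast_smul_eq_nsmul (ZMod p) c.val ξ
    rw [ZMod.natCast_zmod_val] at this
    exact this
  rw [this, map_nsmul, nsmul_eq_mul]

lemma val_cast_ne_zero {c : ZMod p} (hc : c ≠ 0) : ((c.val : ℕ) : K) ≠ 0 := by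
  intro h
  rw [CharP.cast_eq_zero_iff K p] at h
  apply hc
  rw [← ZMod.natCast_zmod_val c, ZMod.natCast_eq_zero_iff]
  exact h

lemma Norm.dl_eq {ξ π : KOne K p} {c : ZMod p} {w : K} (h : Norm ξ π c w) (hc : c ≠ 0)
    (D : Derivation ℤ K K) : (w - 1) * dl D π = w * dl D ξ := by
  obtain ⟨h0, h1, h2, h3⟩ := h
  have e1 := dl_cl (p := p) h0 D
  have e2 := dl_cl (p := p) h1 D
  rw [h2, dl_smul] at e1
  rw [h3, dl_smul] at e2
  unfold lw at e1 e2
  rw [map_sub, Derivation.map_one_eq_zero, sub_zero] at e2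
  apply mul_left_cancel₀ (val_cast_ne_zero (K := K) hc)
  field_simp at e1 e2
  linear_combination e2 - e1

lemma Norm.unique {ξ π : KOne K p} (hξ : ξ ≠ 0) {c c' : ZMod p} {w w' : K}
    (h : Norm ξ π c w) (h' : Norm ξ π c' w') (hc : c ≠ 0) (hc' : c' ≠ 0) : w = w' ∧ c = c' := by
  obtain ⟨x, hx0, rfl⟩ := cl_surj ξ
  have hx : x ∉ PF K p := fun hx => hξ ((cl_eq_zero_iff hx0).2 hx)
  obtain ⟨D, hD⟩ := exists_lw_one hx
  have e1 := h.dl_eq hc D
  have e2 := h'.dl_eq hc' D
  rw [dl_cl hx0, hD] at e1 e2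
  have hw : w = w' := by
    have : (w - 1) * (w' - 1) * dl D π = (w - 1) * (w' - 1) * dl D π := rfl
    linear_combination (w' - 1) * e1 - (w - 1) * e2
  refine ⟨hw, ?_⟩
  have e3 : c • cl p x = c' • cl p x := by rw [← h.2.2.1, ← h'.2.2.1, hw]
  exact smul_left_injective (ZMod p) hξ e3

/-- Rigidity. -/
lemma rigid (hK : ∃ x : K, x ∉ PF K p) (γ : K →+* K) {e : ZMod p} (he : e ≠ 0)
    (h : ∀ u : K, u ≠ 0 → cl p (γ u) = e • cl p u) (u : K) : γ u = u := by
  have key : ∀ x : K, x ∉ PF K p → γ x = x := by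
    intro x hx
    have hx0 : x ≠ 0 := by rintro rfl; exact hx (zero_mem _)
    have hx1 : x - 1 ≠ 0 := by
      intro h; apply hx; rw [sub_eq_zero.1 h]; exact one_mem _
    have n1 : Norm (cl p x) (cl p (x - 1)) 1 x := ⟨hx0, hx1, by simp, by simp⟩
    have e1 : γ x - 1 = γ (x - 1) := by simp
    have n2 : Norm (cl p x) (cl p (x - 1)) e (γ x) :=
      ⟨(map_ne_zero γ).2 hx0, by rw [e1]; exact (map_ne_zero γ).2 hx1, h x hx0,
        by rw [e1]; exact h _ hx1⟩
    exact (Norm.unique (fun h0 => hx ((cl_eq_zero_iff hx0).1 h0)) n2 n1 he one_ne_zero).1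
  by_cases hu : u ∈ PF K p
  · obtain ⟨x, hx⟩ := hK
    have h1 := key x hx
    have h2 := key (x + u) (fun h => hx (by simpa using sub_mem h hu))
    rw [map_add, h1] at h2
    exact add_left_cancel h2
  · exact key u hu

end

end Crest.Agent.R9
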