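import Crest.Agent.R9.Deriv

set_option autoImplicit false

namespace Crest.Agent.R9

open Polynomial IntermediateField

variable {L : Type*} [Field L] {p : ℕ} [hp : Fact p.Prime] [CharP L p]

/-- logarithmic derivative -/
noncomputable def lw (u : L) (D : Derivation ℤ L L) : L := D u / u

lemma lw_mul {u v : L} (hu : u ≠ 0) (hv : v ≠ 0) (D : Derivation ℤ L L) :
    lw (u * v) D = lw u D + lw v D := by
  unfold lw
  rw [Derivation.leibniz]
  simp only [smul_eq_mul]
  field_simp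
  ring

lemma lw_one (D : Derivation ℤ L L) : lw (1 : L) D = 0 := by simp [lw]

lemma lw_div {u v : L} (hu : u ≠ 0) (hv : v ≠ 0) (D : Derivation ℤ L L) :
    lw (u / v) D = lw u D - lw v D := by
  have h := lw_mul (div_ne_zero hu hv) hv D
  rw [div_mul_cancel₀ _ hv] at h
  rw [h]; ring

lemma lw_pow {u : L} (hu : u ≠ 0) (n : ℕ) (D : Derivation ℤ L L) :
    lw (u ^ n) D = n * lw u D := by
  induction n with
  | zero => simp [lw_one]
  | succ n ih => rw [pow_succ, lw_mul (pow_ne_zero _ hu) hu, ih]; push_cast; ring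

lemma lw_closed {u : L} (hu : u ≠ 0) (D D' : Derivation ℤ L L) :
    D (lw u D') - D' (lw u D) = lw u ⁅D, D'⁆ := by
  unfold lw
  rw [Derivation.commutator_apply, Derivation.leibniz_div, Derivation.leibniz_div]
  simp only [smul_eq_mul]
  field_simp
  ring

lemma lw_eq_zero_iff {u : L} (hu : u ≠ 0) (D : Derivation ℤ L L) : lw u D = 0 ↔ D u = 0 := by
  simp [lw, hu]

lemma lw_sub_smul (u a : L) (D D' : Derivation ℤ L L) :
    lw u (D - a • D') = lw u D - a * lw u D' := by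
  unfold lw
  simp only [Derivation.sub_apply, Derivation.smul_apply, smul_eq_mul]
  ring

lemma lw_add (u : L) (D D' : Derivation ℤ L L) :
    lw u (D + D') = lw u D + lw u D' := by
  unfold lw
  simp only [Derivation.add_apply]
  ring

lemma mem_PF_of_lw {u : L} (hu : u ≠ 0) (h : ∀ D, lw u D = 0) : u ∈ PF L p :=
  mem_PF_of_forall fun D => (lw_eq_zero_iff hu D).1 (h D)

/-- If `dlog u = a dlog x`, then `a` is killed by every derivation killing `x`. -/
lemma coef_killed {x u a : L} (hx : x ≠ 0) (hu : u ≠ 0) (h : ∀ D, lw u D = a * lw x D)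
    {D1 : Derivation ℤ L L} (h1 : lw x D1 = 1) {D : Derivation ℤ L L} (hD : lw x D = 0) :
    D a = 0 := by
  have e1 := lw_closed hu D D1
  have e2 := lw_closed hx D D1
  rw [h D1, h D, h, h1, hD] at e1
  rw [h1, hD] at e2
  simp at e1 e2
  rw [← e2] at e1
  simpa using e1

/-- If every derivation killing `x` kills `u` then `dlog u` is a multiple of `dlog x`. -/
lemma lw_prop {x u : L} {D1 : Derivation ℤ L L} (h1 : lw x D1 = 1)
    (h : ∀ D : Derivation ℤ L L, lw x D = 0 → D u = 0) (D : Derivation ℤ L L) :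
    lw u D = lw u D1 * lw x D := by
  have e := h (D - lw x D • D1) (by rw [lw_sub_smul, h1]; ring)
  have e2 : lw u (D - lw x D • D1) = 0 := by unfold lw at *; rw [e]; simp
  rw [lw_sub_smul] at e2
  linear_combination e2

lemma exists_lw_one {x : L} (hx : x ∉ PF L p) : ∃ D1 : Derivation ℤ L L, lw x D1 = 1 := by
  obtain ⟨D, -, hD⟩ := exists_deriv (PF L p) le_rfl hx
  have hx0 : x ≠ 0 := by rintro rfl; exact hx (zero_mem _)
  refine ⟨x • D, ?_⟩
  simp [lw, hD, hx0]

/-- Lemma A. -/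
lemma lemmaA {x u c : L} (hx : x ∉ PF L p) (hu : u ≠ 0) (hc : c ∈ PF L p)
    (h : ∀ D, lw u D = c * lw x D) : ∃ n : ℕ, c = n ∧ u / x ^ n ∈ PF L p := by
  have hx0 : x ≠ 0 := by rintro rfl; exact hx (zero_mem _)
  obtain ⟨D1, h1⟩ := exists_lw_one hx
  have hmem : u ∈ (PF L p)⟮x⟯ := by
    apply mem_adjoin_of_forall
    intro D hD
    rw [← lw_eq_zero_iff hu, h, (lw_eq_zero_iff hx0 D).2 hD, mul_zero]
  have hD1 : D1 x = x := by
    unfold lw at h1
    field_simp at h1
    exact h1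
  have hDu : D1 u = c * u := by
    have := h D1
    rw [h1, mul_one] at this
    unfold lw at this
    field_simp at this
    rw [this]; ring
  obtain ⟨n, hn⟩ := eigen_nat hx hmem hu hc D1 hD1 hDu
  refine ⟨n, hn, ?_⟩
  apply mem_PF_of_lw (div_ne_zero hu (pow_ne_zero _ hx0))
  intro D
  rw [lw_div hu (pow_ne_zero _ hx0), lw_pow hx0, h, hn]; ring

/-- wedge of the logarithmic forms vanishes -/
def Wedge (u v : L) : Prop :=
  ∀ D D' : Derivation ℤ L L, lw u D * lw v D' = lw u D' * lw v D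

/-- The one-variable end of the configuration argument. -/
lemma config_end {x P a c : L} (hx : x ∉ PF L p) (hP : P ≠ 0) (ha : a ∉ PF L p)
    (hPa : ∀ D, lw P D = a * lw x D) {n : ℕ} (hc : c = n)
    (hα : ∀ D, lw (a / (a - 1)) D = c * lw x D) :
    ∃ w : L, w ≠ 0 ∧ w - 1 ≠ 0 ∧ w / x ^ n ∈ PF L p ∧ (w - 1) / P ^ n ∈ PF L p := by
  have hx0 : x ≠ 0 := by rintro rfl; exact hx (zero_mem _)
  have ha0 : a ≠ 0 := by rintro rfl; exact ha (zero_mem _)
  have ha1 : a - 1 ≠ 0 := by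
    intro h; apply ha; rw [sub_eq_zero.1 h]; exact one_mem _
  have hw0 : a / (a - 1) ≠ 0 := div_ne_zero ha0 ha1
  have hw1 : a / (a - 1) - 1 = 1 / (a - 1) := by field_simp; ring
  have hw1' : a / (a - 1) - 1 ≠ 0 := by rw [hw1]; exact one_div_ne_zero ha1
  refine ⟨a / (a - 1), hw0, hw1', ?_, ?_⟩
  · apply mem_PF_of_lw (div_ne_zero hw0 (pow_ne_zero _ hx0))
    intro D
    rw [lw_div hw0 (pow_ne_zero _ hx0), lw_pow hx0, hα, hc]; ring
  · apply mem_PF_of_lw (div_ne_zero hw1' (pow_ne_zero _ hP))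
    intro D
    rw [lw_div hw1' (pow_ne_zero _ hP), lw_pow hP, hPa, ← hc]
    have e : lw (a / (a - 1) - 1) D = a * lw (a / (a - 1)) D := by
      unfold lw
      rw [map_sub, Derivation.map_one_eq_zero, sub_zero, hw1]
      field_simp
    rw [e, hα]; ring

theorem config {x y P Q Z : L} (hx : x ∉ PF L p) (hy : y ∉ (PF L p)⟮x⟯)
    (hP : P ≠ 0) (hQ : Q ≠ 0) (hZ : Z ≠ 0)
    (w1 : Wedge x P) (w2 : Wedge y Q) (w3 : Wedge (x / y) (Z / y)) (w4 : Wedge (P / Q) (Z / Q))
    (n1 : ∀ j : ℕ, P / x ^ j ∉ PF L p) (n2 : ∀ j : ℕ, Q / y ^ j ∉ PF L p) :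
    ∃ n : ℕ, (n : L) ≠ 0 ∧
      (∃ w : L, w ≠ 0 ∧ w - 1 ≠ 0 ∧ w / x ^ n ∈ PF L p ∧ (w - 1) / P ^ n ∈ PF L p) ∧
      (∃ w : L, w ≠ 0 ∧ w - 1 ≠ 0 ∧ w / y ^ n ∈ PF L p ∧ (w - 1) / Q ^ n ∈ PF L p) := by
  have hx0 : x ≠ 0 := by rintro rfl; exact hx (zero_mem _)
  have hy0 : y ≠ 0 := by rintro rfl; exact hy (zero_mem _)
  have hyF : y ∉ PF L p := fun h => hy (((PF L p)⟮x⟯).algebraMap_mem ⟨y, h⟩)
  have hxy : x ∉ (PF L p)⟮y⟯ := fun h => hy (exchange _ le_rfl hx h)
  obtain ⟨D1, h11, h12⟩ : ∃ D1 : Derivation ℤ L L, lw x D1 = 1 ∧ lw y D1 = 0 := by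
    obtain ⟨D, hD0, hD⟩ := exists_deriv ((PF L p)⟮y⟯).toSubfield
      (fun t ht => ((PF L p)⟮y⟯).algebraMap_mem ⟨t, ht⟩) hxy
    have := hD0 y (mem_adjoin_simple_self _ y)
    exact ⟨x • D, by simp [lw, hD, hx0], by simp [lw, this]⟩
  obtain ⟨D2, h21, h22⟩ : ∃ D2 : Derivation ℤ L L, lw x D2 = 0 ∧ lw y D2 = 1 := by
    obtain ⟨D, hD0, hD⟩ := exists_deriv ((PF L p)⟮x⟯).toSubfield
      (fun t ht => ((PF L p)⟮x⟯).algebraMap_mem ⟨t, ht⟩) hy
    have := hD0 x (mem_adjoin_simple_self _ x)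
    exact ⟨y • D, by simp [lw, this], by simp [lw, hD, hy0]⟩
  set a := lw P D1 with hadef
  set b := lw Q D2 with hbdef
  set lam := lw (Z / y) D1 with hlamdef
  have hPa : ∀ D, lw P D = a * lw x D := by
    intro D
    have := w1 D D1
    rw [h11] at this
    linear_combination -this
  have hQb : ∀ D, lw Q D = b * lw y D := by
    intro D
    have := w2 D D2
    rw [h22] at this
    linear_combination -this
  have hZl : ∀ D, lw Z D = lam * lw x D + (1 - lam) * lw y D := by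
    intro D
    have := w3 D D1
    rw [← hlamdef, lw_div hx0 hy0, lw_div hx0 hy0, h11, h12, lw_div hZ hy0] at this
    linear_combination -this
  have hrel : a * (1 - lam - b) = - b * lam := by
    have := w4 D1 D2
    rw [lw_div hP hQ, lw_div hP hQ, lw_div hZ hQ, lw_div hZ hQ, hZl, hZl, hQb D1, hPa D2,
      h11, h12, h21, h22, ← hadef, ← hbdef] at this
    linear_combination this
  have ha : a ∉ PF L p := by
    intro ha
    obtain ⟨n, -, hn⟩ := lemmaA hx hP ha hPa
    exact n1 n hn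
  have hb : b ∉ PF L p := by
    intro hb
    obtain ⟨n, -, hn⟩ := lemmaA hyF hQ hb hQb
    exact n2 n hn
  have ha0 : a ≠ 0 := by intro h; apply ha; rw [h]; exact zero_mem _
  have ha1 : a - 1 ≠ 0 := by
    intro h; apply ha; rw [sub_eq_zero.1 h]; exact one_mem _
  have hb0 : b ≠ 0 := by intro h; apply hb; rw [h]; exact zero_mem _
  have hb1 : b - 1 ≠ 0 := by
    intro h; apply hb; rw [sub_eq_zero.1 h]; exact one_mem _
  have hlam0 : lam ≠ 0 := by
    intro h
    rw [h] at hrel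
    apply mul_ne_zero ha0 hb1
    linear_combination -hrel
  have hlam1 : 1 - lam ≠ 0 := by
    intro h
    have h' : lam = 1 := by linear_combination -h
    rw [h'] at hrel
    apply mul_ne_zero ha1 hb0
    linear_combination -hrel
  have hDlam : (D1 + D2) lam = 0 := by
    have e1 := lw_closed hZ D1 D2
    have e2 := lw_closed hx0 D1 D2
    have e3 := lw_closed hy0 D1 D2
    rw [hZl D1, hZl D2, hZl, ← e2, ← e3, h11, h12, h21, h22] at e1
    simp at e1
    rw [Derivation.add_apply]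
    linear_combination -e1
  set α := a / (a - 1) with hαdef
  set β := b / (b - 1) with hβdef
  have hα0 : α ≠ 0 := div_ne_zero ha0 ha1
  have hβ0 : β ≠ 0 := div_ne_zero hb0 hb1
  have hαk : ∀ D : Derivation ℤ L L, lw x D = 0 → D α = 0 := by
    intro D hD
    have := coef_killed hx0 hP hPa h11 hD
    rw [hαdef, Derivation.leibniz_div, map_sub, this]; simp
  have hβk : ∀ D : Derivation ℤ L L, lw y D = 0 → D β = 0 := by
    intro D hD
    have := coef_killed hy0 hQ hQb h22 hD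
    rw [hβdef, Derivation.leibniz_div, map_sub, this]; simp
  have hαβ : lam * β = - (1 - lam) * α := by
    rw [hαdef, hβdef]
    field_simp
    linear_combination -hrel
  have hc : lw α D1 = lw β D2 := by
    have e1 : lw (lam * β) (D1 + D2) = lw (-(1 - lam) * α) (D1 + D2) := by rw [hαβ]
    rw [lw_mul hlam0 hβ0, lw_mul (neg_ne_zero.2 hlam1) hα0] at e1
    have e2 : lw lam (D1 + D2) = 0 := (lw_eq_zero_iff hlam0 _).2 hDlam
    have e3 : lw (-(1 - lam)) (D1 + D2) = 0 := by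
      rw [lw_eq_zero_iff (neg_ne_zero.2 hlam1), map_neg, map_sub, hDlam]; simp
    have e4 : lw α D2 = 0 := (lw_eq_zero_iff hα0 _).2 (hαk D2 h21)
    have e5 : lw β D1 = 0 := (lw_eq_zero_iff hβ0 _).2 (hβk D1 h12)
    rw [e2, e3, lw_add, lw_add, e4, e5] at e1
    linear_combination -e1
  set c := lw α D1 with hcdef
  have hαc : ∀ D, lw α D = c * lw x D := lw_prop h11 hαk
  have hβc : ∀ D, lw β D = c * lw y D := by
    intro D; rw [hc]; exact lw_prop h22 hβk D
  have hcF : c ∈ PF L p := by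
    apply mem_PF_of_forall
    intro D
    have e1 : (D - lw x D • D1) c = 0 :=
      coef_killed hx0 hα0 hαc h11 (by rw [lw_sub_smul, h11]; ring)
    have e2 : D1 c = 0 := coef_killed hy0 hβ0 hβc h22 h12
    simpa [e2] using e1
  obtain ⟨n, hn, -⟩ := lemmaA hx hα0 hcF hαc
  refine ⟨n, ?_, config_end hx hP ha hPa hn hαc, config_end hyF hQ hb hQb hn hβc⟩
  intro h0
  rw [← hn] at h0
  have hαF : α ∈ PF L p := by
    apply mem_PF_of_lw hα0
    intro D; rw [hαc, h0, zero_mul]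
  apply ha
  have hα1 : α - 1 = 1 / (a - 1) := by rw [hαdef]; field_simp; ring
  have : a = α / (α - 1) := by
    rw [hα1, hαdef]; field_simp
  rw [this]
  exact div_mem hαF (sub_mem hαF (one_mem _))

end Crest.Agent.R9
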