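import Mathlib

set_option autoImplicit false

namespace Crest.Agent.R9

open Polynomial IntermediateField

/-- The subfield of `p`-th powers. -/
def PF (K : Type*) [Field K] (p : ℕ) [Fact p.Prime] [CharP K p] : Subfield K :=
  (frobenius K p).fieldRange

variable {K : Type*} [Field K] {p : ℕ} [hp : Fact p.Prime] [CharP K p]

lemma mem_PF {u : K} : u ∈ PF K p ↔ ∃ a : K, a ^ p = u := by
  simp [PF, RingHom.mem_fieldRange, frobenius_def]

lemma pow_mem_PF (a : K) : a ^ p ∈ PF K p := mem_PF.2 ⟨a, rfl⟩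

lemma minpoly_eq (N : Subfield K) (hN : PF K p ≤ N) {z : K} (hz : z ∉ N) :
    minpoly N z = X ^ p - C (⟨z ^ p, hN (pow_mem_PF z)⟩ : N) := by
  symm
  apply minpoly.eq_of_irreducible_of_monic
  · apply X_pow_sub_C_irreducible_of_prime hp.out
    intro b hb
    apply hz
    have h1 : (b : K) ^ p = z ^ p := by
      have := congrArg (fun t : N => (t : K)) hb
      simpa using this
    have h2 : (b : K) = z := by
      apply (frobenius K p).injective
      simpa [frobenius_def] using h1
    rw [← h2]; exact b.2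
  · simp [Algebra.algebraMap_eq_smul_one]
    simp [Subfield.smul_def]
  · exact monic_X_pow_sub_C _ hp.out.ne_zero

lemma isIntegral_of_le (N : Subfield K) (hN : PF K p ≤ N) (z : K) : IsIntegral N z := by
  refine ⟨X ^ p - C (⟨z ^ p, hN (pow_mem_PF z)⟩ : N), monic_X_pow_sub_C _ hp.out.ne_zero, ?_⟩
  simp
  exact sub_eq_zero.2 rfl

lemma finrank_adjoin (N : Subfield K) (hN : PF K p ≤ N) {z : K} (hz : z ∉ N) :
    Module.finrank N N⟮z⟯ = p := by
  rw [IntermediateField.adjoin.finrank (isIntegral_of_le N hN z), minpoly_eq N hN hz,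
    natDegree_X_pow_sub_C]

lemma exchange (N : Subfield K) (hN : PF K p ≤ N) {y z : K} (hy : y ∉ N) (hyz : y ∈ N⟮z⟯) :
    z ∈ N⟮y⟯ := by
  have hz : z ∉ N := by
    intro hz
    apply hy
    have : N⟮z⟯ ≤ ⊥ := by
      rw [adjoin_simple_le_iff]
      exact ⟨⟨z, hz⟩, rfl⟩
    obtain ⟨b, hb⟩ := this hyz
    rw [← hb]; exact b.2
  have hle : N⟮y⟯ ≤ N⟮z⟯ := by rwa [adjoin_simple_le_iff]
  haveI : FiniteDimensional N N⟮z⟯ := adjoin.finiteDimensional (isIntegral_of_le N hN z)
  have := IntermediateField.eq_of_le_of_finrank_eq hle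
    (by rw [finrank_adjoin N hN hy, finrank_adjoin N hN hz])
  rw [this]; exact mem_adjoin_simple_self N z

lemma exists_deriv (M : Subfield K) (hM : PF K p ≤ M) {y : K} (hy : y ∉ M) :
    ∃ D : Derivation ℤ K K, (∀ m ∈ M, D m = 0) ∧ D y = 1 := by
  obtain ⟨N, hMN, hNmax⟩ : ∃ N : Subfield K, M ≤ N ∧ Maximal (fun N : Subfield K => y ∉ N) N := by
    apply zorn_le_nonempty₀ {N : Subfield K | y ∉ N} _ M hy
    intro c hc hchain N0 hN0
    refine ⟨sSup c, ?_, fun N hN => le_sSup hN⟩
    intro hmem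
    obtain ⟨N, hN, hyN⟩ := (Subfield.mem_sSup_of_directedOn ⟨N0, hN0⟩ hchain.directedOn).1 hmem
    exact hc hN hyN
  have hN : PF K p ≤ N := hM.trans hMN
  have hyN : y ∉ N := hNmax.prop
  have htop : ∀ z : K, z ∈ N⟮y⟯ := by
    intro z
    by_cases hz : z ∈ N
    · exact (N⟮y⟯).algebraMap_mem ⟨z, hz⟩
    · apply exchange N hN hyN
      by_contra hyz
      have h1 : N ≤ (N⟮z⟯).toSubfield := fun t ht => (N⟮z⟯).algebraMap_mem ⟨t, ht⟩
      have h2 := hNmax.le_of_ge (y := (N⟮z⟯).toSubfield) hyz h1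
      exact hz (h2 (mem_adjoin_simple_self N z))
  have hsurj : Function.Surjective (aeval y : N[X] →ₐ[N] K) := by
    intro z
    have := htop z
    rw [← IntermediateField.mem_toSubalgebra,
      adjoin_simple_toSubalgebra_of_isAlgebraic (isIntegral_of_le N hN y).isAlgebraic,
      Algebra.adjoin_singleton_eq_range_aeval] at this
    exact this
  have hd : ∀ q : N[X], aeval y q = 0 → aeval y (Polynomial.derivative' q) = 0 := by
    intro q hq
    obtain ⟨r, hr⟩ := minpoly.dvd N y hq
    have h0 : aeval y (minpoly N y) = 0 := minpoly.aeval N y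
    have h1 : derivative (minpoly N y) = 0 := by
      rw [minpoly_eq N hN hyN]
      simp [derivative_X_pow]
    rw [hr]
    simp [derivative_mul, h0, h1]
  refine ⟨(Derivation.liftOfSurjective hsurj hd).restrictScalars ℤ, ?_, ?_⟩
  · intro m hm
    exact (Derivation.liftOfSurjective hsurj hd).map_algebraMap ⟨m, hMN hm⟩
  · have := Derivation.liftOfSurjective_apply hsurj hd X
    simpa using this

lemma deriv_PF (D : Derivation ℤ K K) {t : K} (ht : t ∈ PF K p) : D t = 0 := by
  obtain ⟨a, rfl⟩ := mem_PF.1 ht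
  rw [Derivation.leibniz_pow]
  simp

lemma mem_PF_of_forall {c : K} (h : ∀ D : Derivation ℤ K K, D c = 0) : c ∈ PF K p := by
  by_contra hc
  obtain ⟨D, -, hD⟩ := exists_deriv (PF K p) le_rfl hc
  rw [h D] at hD
  exact zero_ne_one hD

lemma mem_adjoin_of_forall {x c : K} (h : ∀ D : Derivation ℤ K K, D x = 0 → D c = 0) :
    c ∈ (PF K p)⟮x⟯ := by
  by_contra hc
  obtain ⟨D, hD0, hD⟩ := exists_deriv ((PF K p)⟮x⟯).toSubfield
    (fun t ht => ((PF K p)⟮x⟯).algebraMap_mem ⟨t, ht⟩) hc
  rw [h D (hD0 x (mem_adjoin_simple_self _ x))] at hD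
  exact zero_ne_one hD

lemma deriv_aeval (D : Derivation ℤ K K) (x : K) (q : (PF K p)[X]) :
    D (aeval x q) = aeval x (derivative q) * D x := by
  induction q using Polynomial.induction_on' with
  | add q r hq hr => simp [hq, hr, add_mul]
  | monomial n a =>
    have ha : D (algebraMap (PF K p) K a) = 0 := deriv_PF D a.2
    rw [derivative_monomial, aeval_monomial, aeval_monomial, Derivation.leibniz, ha,
      Derivation.leibniz_pow]
    simp
    ring

/-- eigenvalues of `x d/dx` on `F(x)` are natural numbers -/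
lemma eigen_nat {x u c : K} (hx : x ∉ PF K p) (hu : u ∈ (PF K p)⟮x⟯) (hu0 : u ≠ 0)
    (hc : c ∈ PF K p) (D : Derivation ℤ K K) (hD : D x = x) (hDu : D u = c * u) :
    ∃ n : ℕ, c = n := by
  have hint := isIntegral_of_le (PF K p) le_rfl x
  rw [← IntermediateField.mem_toSubalgebra,
      adjoin_simple_toSubalgebra_of_isAlgebraic hint.isAlgebraic,
      Algebra.adjoin_singleton_eq_range_aeval] at hu
  obtain ⟨q0, hq0⟩ := hu
  set q := q0 %ₘ minpoly (PF K p) x with hqdef
  have hq : aeval x q = u := by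
    rw [hqdef, minpoly.aeval_modByMonic_minpoly]
    exact hq0
  have hdeg : q.degree < (minpoly (PF K p) x).degree :=
    degree_modByMonic_lt _ (minpoly.monic hint)
  have hqne : q ≠ 0 := by
    rintro h; rw [h] at hq; simp at hq; exact hu0 hq.symm
  set r : (PF K p)[X] := X * derivative q - C (⟨c, hc⟩ : PF K p) * q with hr
  have hr0 : aeval x r = 0 := by
    have h1 := deriv_aeval D x q
    rw [hq, hD, hDu] at h1
    rw [hr]
    simp only [map_sub, map_mul, aeval_X, aeval_C, hq]
    have : algebraMap (PF K p) K ⟨c, hc⟩ = c := rfl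
    rw [this, h1]; ring
  have hrdeg : r.degree ≤ q.degree := by
    rw [degree_le_iff_coeff_zero]
    intro m hm
    have hqm : q.coeff m = 0 := coeff_eq_zero_of_degree_lt hm
    rw [hr, coeff_sub, coeff_C_mul, hqm]
    cases m with
    | zero => simp
    | succ m => rw [coeff_X_mul, coeff_derivative, hqm]; simp
  have hrz : r = 0 := by
    by_contra hne
    have := minpoly.degree_le_of_ne_zero (PF K p) x hne hr0
    exact absurd (this.trans hrdeg) (not_le.2 hdeg)
  refine ⟨q.natDegree, ?_⟩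
  have h1 : r.coeff q.natDegree = 0 := by rw [hrz]; simp
  have hlc : q.coeff q.natDegree ≠ 0 := by
    rw [coeff_natDegree]; exact leadingCoeff_ne_zero.2 hqne
  rw [hr, coeff_sub, coeff_C_mul] at h1
  generalize q.natDegree = n at h1 hlc
  have h2 : (X * derivative q).coeff n = q.coeff n * n := by
    cases n with
    | zero => simp
    | succ m => rw [coeff_X_mul, coeff_derivative]; simp
  rw [h2] at h1
  have h3 : (q.coeff n) * ((n : PF K p) - ⟨c, hc⟩) = 0 := by rw [← h1]; ring
  have h4 := (mul_eq_zero.1 h3).resolve_left hlc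
  have h5 := congrArg (fun t : PF K p => (t : K)) h4
  simp at h5
  exact (sub_eq_zero.1 h5).symm

end Crest.Agent.R9
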