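import Crest.Agent.R9.Hom

set_option autoImplicit false

namespace Crest.Agent.R9

open Polynomial IntermediateField

variable {K : Type*} [Field K] {p : ℕ} [hp : Fact p.Prime] [CharP K p]

lemma essFiniteType_of_closure (k : Subfield K)
    (hK : ∃ s : Finset K, Subfield.closure ((k : Set K) ∪ (s : Set K)) = ⊤) :
    Algebra.EssFiniteType k K := by
  rw [← IntermediateField.fg_top_iff]
  obtain ⟨s, hs⟩ := hK
  refine ⟨s, ?_⟩
  apply IntermediateField.toSubfield_injective
  rw [adjoin_toSubfield]
  have : Set.range (algebraMap k K) = (k : Set K) := Subtype.range_coe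
  rw [this, hs]
  rfl

lemma big_of_trdeg (k : Subfield K)
    (hK : ∃ s : Finset K, Subfield.closure ((k : Set K) ∪ (s : Set K)) = ⊤)
    (hK2 : 2 ≤ Algebra.trdeg k K) : Big K p := by
  intro x
  by_contra hx
  push Not at hx
  have := essFiniteType_of_closure k hK
  have h1 : Algebra.EssFiniteType k⟮x⟯ K := Algebra.EssFiniteType.of_comp k k⟮x⟯ K
  have h2 : Algebra.FormallyUnramified k⟮x⟯ K := by
    constructor
    suffices (⊤ : Submodule K Ω[K⁄k⟮x⟯]) ≤ ⊥ from
      (subsingleton_iff_forall_eq 0).mpr fun y ↦ this trivial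
    rw [← KaehlerDifferential.span_range_derivation, Submodule.span_le]
    rintro _ ⟨y, rfl⟩
    change KaehlerDifferential.D k⟮x⟯ K y = 0
    set D := KaehlerDifferential.D k⟮x⟯ K
    have hy := hx y
    induction hy using IntermediateField.adjoin_induction with
    | mem z hz =>
      rw [Set.mem_singleton_iff.1 hz]
      exact D.map_algebraMap (AdjoinSimple.gen k x)
    | algebraMap t =>
      obtain ⟨a, ha⟩ := mem_PF.1 t.2
      change D (t : K) = 0
      rw [← ha, Derivation.leibniz_pow, ← Nat.cast_smul_eq_nsmul K]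
      simp
    | add a b _ _ ha hb => rw [map_add, ha, hb, add_zero]
    | inv a _ ha => rw [Derivation.leibniz_inv, ha, smul_zero]
    | mul a b _ _ ha hb => rw [Derivation.leibniz, ha, hb]; simp
  have h3 : Algebra.IsSeparable k⟮x⟯ K := Algebra.FormallyUnramified.isSeparable _ _
  have h4 : Algebra.IsAlgebraic k⟮x⟯ K := inferInstance
  rw [isAlgebraic_adjoin_iff_top] at h4
  have h5 := Algebra.IsAlgebraic.trdeg_le_cardinalMk k ({x} : Set K)
  have h6 := hK2.trans h5
  simp at h6

lemma mem_iff_roots (k : Subfield K) [IsAlgClosed k]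
    (hK : ∃ s : Finset K, Subfield.closure ((k : Set K) ∪ (s : Set K)) = ⊤) (t : K) :
    t ∈ k ↔ ∀ n : ℕ, ∃ s : K, s ^ p ^ n = t := by
  constructor
  · intro ht n
    obtain ⟨z, hz⟩ := IsAlgClosed.exists_pow_nat_eq (⟨t, ht⟩ : k) (pow_pos hp.out.pos n)
    refine ⟨z, ?_⟩
    have := congrArg (fun a : k => (a : K)) hz
    simpa using this
  intro h
  by_contra ht
  have htr : Transcendental k t := by
    intro halg
    apply ht
    have h1 : (minpoly k t).degree = 1 :=
      IsAlgClosed.degree_eq_one_of_irreducible k (minpoly.irreducible halg.isIntegral)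
    obtain ⟨a, ha⟩ := minpoly.mem_range_of_degree_eq_one k t h1
    rw [← ha]; exact a.2
  have hind : AlgebraicIndepOn k id ({t} : Set K) := by
    rw [AlgebraicIndepOn]
    exact (algebraicIndependent_singleton_iff (⟨t, rfl⟩ : ({t} : Set K))).2 htr
  obtain ⟨B, htB, hB⟩ := exists_isTranscendenceBasis_superset hind
  have := essFiniteType_of_closure k hK
  set E := IntermediateField.adjoin k (Set.range ((↑) : B → K)) with hE
  have h1 : Algebra.EssFiniteType E K := Algebra.EssFiniteType.of_comp k E K
  have h2 : Algebra.IsAlgebraic E K := hB.isAlgebraic_field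
  have h3 : Module.Finite E K := Algebra.finite_of_essFiniteType_of_isAlgebraic
  let C : ℕ →o Submodule E K :=
    { toFun := fun n =>
        { carrier := {z | z ^ p ^ n ∈ E}
          add_mem' := fun {a b} ha hb => by
            change (a + b) ^ p ^ n ∈ E
            rw [add_pow_char_pow]; exact add_mem ha hb
          zero_mem' := by
            change (0 : K) ^ p ^ n ∈ E
            exact pow_mem (zero_mem _) _
          smul_mem' := fun c z hz => by
            change ((c : K) * z) ^ p ^ n ∈ E
            rw [mul_pow]; exact mul_mem (pow_mem c.2 _) hz }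
      monotone' := by
        apply monotone_nat_of_le_succ
        intro n z hz
        change z ^ p ^ (n + 1) ∈ E
        change z ^ p ^ n ∈ E at hz
        rw [pow_succ, pow_mul]; exact pow_mem hz _ }
  obtain ⟨n, hn⟩ := (monotone_stabilizes_iff_noetherian.2 inferInstance) C
  obtain ⟨s, hs⟩ := h (n + 1)
  have htE : t ∈ E := subset_adjoin _ _ ⟨⟨t, htB rfl⟩, rfl⟩
  have hs1 : s ∈ C (n + 1) := by
    change s ^ p ^ (n + 1) ∈ E
    rw [hs]; exact htE
  rw [← hn (n + 1) (Nat.le_succ n)] at hs1
  change s ^ p ^ n ∈ E at hs1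
  rw [hE, mem_adjoin_range_iff] at hs1
  obtain ⟨a, b, hab⟩ := hs1
  have e1 : (s ^ p ^ n) ^ p = t := by rw [← pow_mul, ← pow_succ, hs]
  have hinj : Function.Injective (MvPolynomial.aeval (R := k) ((↑) : B → K)) := hB.1
  have ht0 : t ≠ 0 := by rintro rfl; exact ht (zero_mem _)
  have hb0 : MvPolynomial.aeval (R := k) ((↑) : B → K) b ≠ 0 := by
    intro h0
    rw [h0, div_zero] at hab
    rw [hab, zero_pow hp.out.ne_zero] at e1
    exact ht0 e1.symm
  have e2 : MvPolynomial.X (⟨t, htB rfl⟩ : B) * b ^ p = a ^ p := by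
    apply hinj
    rw [map_mul, map_pow, map_pow, MvPolynomial.aeval_X]
    change t * _ = _
    rw [← e1, hab, div_pow, div_mul_cancel₀ _ (pow_ne_zero _ hb0)]
  have e3 := congrArg (MvPolynomial.pderiv (⟨t, htB rfl⟩ : B)) e2
  have hp0 : ((p : ℕ) : MvPolynomial B k) = 0 := CharP.cast_eq_zero _ p
  rw [Derivation.leibniz, Derivation.leibniz_pow, Derivation.leibniz_pow, MvPolynomial.pderiv_X_self,
    nsmul_eq_mul, nsmul_eq_mul, hp0] at e3
  simp at e3
  apply hb0
  rw [e3.1, map_zero]

end Crest.Agent.R9
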