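import Crest.Agent.R9.Deriv

set_option autoImplicit false

namespace Crest.Agent.R9

open Polynomial IntermediateField

section generic

variable {L : Type*} [Field L] {p : ℕ} [hp : Fact p.Prime] [CharP L p]

/-- `L` is not generated over its `p`-th powers by one element. -/
def Big (L : Type*) [Field L] (p : ℕ) [Fact p.Prime] [CharP L p] : Prop :=
  ∀ x : L, ∃ y : L, y ∉ (PF L p)⟮x⟯

lemma mem_adj_of_mem {t : L} (ht : t ∈ PF L p) (x : L) : t ∈ (PF L p)⟮x⟯ :=
  ((PF L p)⟮x⟯).algebraMap_mem ⟨t, ht⟩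

lemma Big.exists_not_mem (h : Big L p) : ∃ x : L, x ∉ PF L p := by
  obtain ⟨y, hy⟩ := h 0
  exact ⟨y, fun h => hy (mem_adj_of_mem h 0)⟩

lemma Big.infinite (h : Big L p) : Infinite (PF L p) := by
  have hL : Infinite L := by
    by_contra hfin
    rw [not_infinite_iff_finite] at hfin
    obtain ⟨x, hx⟩ := h.exists_not_mem
    have := Finite.surjective_of_injective (frobenius L p).injective
    exact hx (this x)
  exact Infinite.of_injective (fun a : L => (⟨a ^ p, pow_mem_PF a⟩ : PF L p))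
    (fun a b hab => (frobenius L p).injective (by
      have := congrArg (fun t : PF L p => (t : L)) hab
      simpa [frobenius_def] using this))

lemma Big.generic (h : Big L p) {ι : Type} [Finite ι] (u w : ι → L) (hu : ∀ i, u i ≠ 0) :
    ∃ Y : L, ∀ i, u i * Y ∉ (PF L p)⟮w i⟯ := by
  have := h.infinite
  let S : ι → Submodule (PF L p) L := fun i =>
    (Subalgebra.toSubmodule ((PF L p)⟮w i⟯).toSubalgebra).comap (LinearMap.mulLeft (PF L p) (u i))
  obtain ⟨Y, hY⟩ := Submodule.exists_forall_notMem_of_forall_ne_top S (by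
    intro i hi
    obtain ⟨y, hy⟩ := h (w i)
    have : (u i)⁻¹ * y ∈ S i := by rw [hi]; trivial
    apply hy
    simp only [S, Submodule.mem_comap, LinearMap.mulLeft_apply] at this
    rw [← mul_assoc, mul_inv_cancel₀ (hu i), one_mul] at this
    exact this)
  exact ⟨Y, fun i hi => hY i hi⟩

/-- `1, X, Y` are independent over the `p`-th powers. -/
def Ind (p : ℕ) [Fact p.Prime] [CharP L p] (X Y : L) : Prop :=
  ∀ a b c : L, a ∈ PF L p → b ∈ PF L p → c ∈ PF L p → a + b * X + c * Y = 0 →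
    a = 0 ∧ b = 0 ∧ c = 0

lemma Ind.symm {X Y : L} (h : Ind p X Y) : Ind p Y X := by
  intro a b c ha hb hc e
  obtain ⟨h1, h2, h3⟩ := h a c b ha hc hb (by linear_combination e)
  exact ⟨h1, h3, h2⟩

lemma ind_of_not_mem {X Y : L} (hX : X ∉ PF L p) (hY : Y ∉ (PF L p)⟮X⟯) : Ind p X Y := by
  intro a b c ha hb hc e
  have hc0 : c = 0 := by
    by_contra hc0
    apply hY
    have : Y = -(a + b * X) / c := by field_simp; linear_combination e
    rw [this]
    exact div_mem (neg_mem (add_mem (mem_adj_of_mem ha X)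
      (mul_mem (mem_adj_of_mem hb X) (mem_adjoin_simple_self _ X)))) (mem_adj_of_mem hc X)
  have hb0 : b = 0 := by
    by_contra hb0
    apply hX
    have : X = -a / b := by rw [hc0] at e; field_simp; linear_combination e
    rw [this]
    exact div_mem (neg_mem ha) hb
  refine ⟨?_, hb0, hc0⟩
  rw [hb0, hc0] at e
  simpa using e

end generic

variable {K L : Type*} [Field K] [Field L] {p : ℕ} [hp : Fact p.Prime] [CharP K p] [CharP L p]

/-- A correspondence of projective spaces compatible with multiplication and with lines. -/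
structure GoodRel (p : ℕ) [Fact p.Prime] [CharP K p] [CharP L p] (R : K → L → Prop) : Prop where
  ne_left : ∀ {u v}, R u v → u ≠ 0
  ne_right : ∀ {u v}, R u v → v ≠ 0
  ex_right : ∀ u, u ≠ 0 → ∃ v, R u v
  ex_left : ∀ v, v ≠ 0 → ∃ u, R u v
  mul : ∀ {u v u' v'}, R u v → R u' v' → R (u * u') (v * v')
  div : ∀ {u v u' v'}, R u v → R u' v' → R (u / u') (v / v')
  mem_iff : ∀ {u v}, R u v → (u ∈ PF K p ↔ v ∈ PF L p)
  norm : ∀ x, x ∉ PF K p → ∃ w, R x w ∧ R (x - 1) (w - 1)

namespace GoodRel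

variable {R : K → L → Prop} (h : GoodRel p R)
include h

lemma ratio {u v v'} (h1 : R u v) (h2 : R u v') : v / v' ∈ PF L p := by
  have := h.div h1 h2
  rw [div_self (h.ne_left h1)] at this
  exact (h.mem_iff this).1 (one_mem _)

lemma ex_mul {u v v'} (h1 : R u v) (h2 : R u v') : ∃ t, t ∈ PF L p ∧ t ≠ 0 ∧ v = t * v' :=
  ⟨v / v', h.ratio h1 h2, div_ne_zero (h.ne_right h1) (h.ne_right h2),
    (div_mul_cancel₀ _ (h.ne_right h2)).symm⟩

open Classical in
/-- normalised representative -/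
noncomputable def A (x : K) : L := if hx : x ∈ PF K p then 1 else (h.norm x hx).choose

lemma A_rel {x : K} (hx : x ∉ PF K p) : R x (h.A x) := by
  rw [A, dif_neg hx]; exact (h.norm x hx).choose_spec.1

lemma A_rel' {x : K} (hx : x ∉ PF K p) : R (x - 1) (h.A x - 1) := by
  rw [A, dif_neg hx]; exact (h.norm x hx).choose_spec.2

lemma A_ne {x : K} (hx : x ∉ PF K p) : h.A x ≠ 0 := h.ne_right (h.A_rel hx)

lemma A_not_mem {x : K} (hx : x ∉ PF K p) : h.A x ∉ PF L p :=
  fun hh => hx ((h.mem_iff (h.A_rel hx)).2 hh)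

/-- Lines go to lines. -/
lemma line {u v : K} {u' v' : L} (hu : R u u') (hv : R v v') (huv : u / v ∉ PF K p) :
    ∃ s, s ∈ PF L p ∧ h.A (u / v) = s * (u' / v') ∧ R (u - v) (s * u' - v') := by
  obtain ⟨s, hs, -, e⟩ := h.ex_mul (h.A_rel huv) (h.div hu hv)
  refine ⟨s, hs, e, ?_⟩
  have := h.mul hv (h.A_rel' huv)
  have e1 : v * (u / v - 1) = u - v := by have := h.ne_left hv; field_simp
  have e2 : v' * (h.A (u / v) - 1) = s * u' - v' := by
    rw [e]; have := h.ne_right hv; field_simp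
  rwa [e1, e2] at this

lemma not_mem_of_ind {u v : K} {u' v' X Y : L} (hu : R u u') (hv : R v v') (hi : Ind p X Y)
    {a b c : L} (ha : a ∈ PF L p) (hb : b ∈ PF L p) (hc : c ∈ PF L p)
    (hu' : u' = X + a) (hv' : v' = b * Y + c) : u / v ∉ PF K p := by
  intro hh
  have h1 := (h.mem_iff (h.div hu hv)).1 hh
  have hv0 := h.ne_right hv
  have := hi (a - u' / v' * c) 1 (-(u' / v') * b) (sub_mem ha (mul_mem h1 hc)) (one_mem _)
    (mul_mem (neg_mem h1) hb) (by
      have : u' / v' * v' = u' := div_mul_cancel₀ _ hv0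
      linear_combination -hu' + (u' / v') * hv' - this)
  exact one_ne_zero this.2.1

lemma claim1 {x y : K} (hx : x ∉ PF K p) (hy : y ∉ PF K p) (hi : Ind p (h.A x) (h.A y)) :
    h.A (x / y) = h.A x / h.A y := by
  have hxy : x / y ∉ PF K p :=
    h.not_mem_of_ind (h.A_rel hx) (h.A_rel hy) hi (zero_mem _) (one_mem _) (zero_mem _)
      (by ring) (by ring)
  have hxy' : (x - 1) / (y - 1) ∉ PF K p :=
    h.not_mem_of_ind (h.A_rel' hx) (h.A_rel' hy) hi (neg_mem (one_mem _)) (one_mem _)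
      (neg_mem (one_mem _)) (by ring) (by ring)
  obtain ⟨s, hs, e, r1⟩ := h.line (h.A_rel hx) (h.A_rel hy) hxy
  obtain ⟨s', hs', -, r2⟩ := h.line (h.A_rel' hx) (h.A_rel' hy) hxy'
  have e1 : x - 1 - (y - 1) = x - y := by ring
  rw [e1] at r2
  obtain ⟨t, ht, ht0, e2⟩ := h.ex_mul r1 r2
  obtain ⟨k1, k2, k3⟩ := hi (t * s' - t) (s - t * s') (t - 1) (sub_mem (mul_mem ht hs') ht)
    (sub_mem hs (mul_mem ht hs')) (sub_mem ht (one_mem _)) (by linear_combination e2)
  have : s = 1 := by linear_combination k1 + k2 + k3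
  rw [e, this, one_mul]

lemma generic (hL : Big L p) {ι : Type} [Finite ι] (u : ι → K) (W : ι → L) (hu : ∀ i, u i ≠ 0) :
    ∃ y : K, ∀ i, u i * y ∉ PF K p ∧ h.A (u i * y) ∉ (PF L p)⟮W i⟯ := by
  choose u' hu' using fun i => h.ex_right (u i) (hu i)
  obtain ⟨Y, hY⟩ := hL.generic u' W (fun i => h.ne_right (hu' i))
  cases isEmpty_or_nonempty ι with
  | inl _ => exact ⟨0, fun i => isEmptyElim i⟩
  | inr hne =>
    have hY0 : Y ≠ 0 := by
      rintro rfl
      obtain ⟨i⟩ := hne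
      apply hY i
      rw [mul_zero]; exact zero_mem _
    obtain ⟨y, hy⟩ := h.ex_left Y hY0
    refine ⟨y, fun i => ?_⟩
    have r := h.mul (hu' i) hy
    have h1 : u i * y ∉ PF K p := fun hh => hY i (mem_adj_of_mem ((h.mem_iff r).1 hh) _)
    refine ⟨h1, fun hh => hY i ?_⟩
    obtain ⟨t, ht, -, e⟩ := h.ex_mul r (h.A_rel h1)
    rw [e]
    exact mul_mem (mem_adj_of_mem ht _) hh

lemma claim2 (hL : Big L p) {u w w' : K} (hu : u ≠ 0) (hw : w ∉ PF K p) (huw : u * w ∉ PF K p)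
    (hw' : w' ∉ PF K p) (huw' : u * w' ∉ PF K p) :
    h.A (u * w) / h.A w = h.A (u * w') / h.A w' := by
  have key : ∀ {w y : K}, w ∉ PF K p → u * w ∉ PF K p → y ∉ PF K p → u * y ∉ PF K p →
      h.A y ∉ (PF L p)⟮h.A w⟯ → h.A (u * y) ∉ (PF L p)⟮h.A (u * w)⟯ →
      h.A (u * w) / h.A w = h.A (u * y) / h.A y := by
    intro w y hw huw hy huy g1 g2
    have e1 := h.claim1 hw hy (ind_of_not_mem (h.A_not_mem hw) g1)
    have e2 := h.claim1 huw huy (ind_of_not_mem (h.A_not_mem huw) g2)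
    rw [mul_div_mul_left _ _ hu, e1] at e2
    have := h.A_ne hw
    have := h.A_ne hy
    have := h.A_ne huy
    field_simp at e2 ⊢
    linear_combination -e2
  obtain ⟨y, hy⟩ := h.generic hL ![1, 1, u, u]
    ![h.A w, h.A w', h.A (u * w), h.A (u * w')] (by
      intro i; fin_cases i <;> simp [hu])
  have g0 := hy 0
  have g1 := hy 1
  have g2 := hy 2
  have g3 := hy 3
  simp at g0 g1 g2 g3
  rw [key hw huw g0.1 g2.1 g0.2 g2.2, key hw' huw' g0.1 g2.1 g1.2 g3.2]

lemma exists_aux (hL : Big L p) (u v : K) (hu : u ≠ 0) (hv : v ≠ 0) :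
    ∃ w, w ∉ PF K p ∧ u * w ∉ PF K p ∧ v * w ∉ PF K p := by
  obtain ⟨y, hy⟩ := h.generic hL ![1, u, v] ![0, 0, 0] (by
      intro i; fin_cases i <;> simp [hu, hv])
  have g0 := (hy 0).1
  have g1 := (hy 1).1
  have g2 := (hy 2).1
  simp at g0 g1 g2
  exact ⟨y, g0, g1, g2⟩

open Classical in
/-- the field map -/
noncomputable def al (hL : Big L p) (u : K) : L :=
  if hu : u = 0 then 0 else
    h.A (u * (h.exists_aux hL u u hu hu).choose) / h.A (h.exists_aux hL u u hu hu).choose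

variable (hL : Big L p)

lemma al_zero : h.al hL 0 = 0 := by simp [al]

lemma al_spec {u w : K} (hu : u ≠ 0) (hw : w ∉ PF K p) (huw : u * w ∉ PF K p) :
    h.al hL u = h.A (u * w) / h.A w := by
  rw [al, dif_neg hu]
  have := (h.exists_aux hL u u hu hu).choose_spec
  exact h.claim2 hL hu this.1 this.2.1 hw huw

lemma al_rel {u : K} (hu : u ≠ 0) : R u (h.al hL u) := by
  obtain ⟨w, hw, huw, -⟩ := h.exists_aux hL u u hu hu
  rw [h.al_spec hL hu hw huw]
  have := h.div (h.A_rel huw) (h.A_rel hw)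
  rwa [mul_div_cancel_right₀ _ (h.ne_left (h.A_rel hw))] at this

lemma al_one : h.al hL 1 = 1 := by
  obtain ⟨w, hw, huw, -⟩ := h.exists_aux hL 1 1 one_ne_zero one_ne_zero
  rw [h.al_spec hL one_ne_zero hw huw, one_mul, div_self (h.A_ne hw)]

lemma al_mul (u v : K) : h.al hL (u * v) = h.al hL u * h.al hL v := by
  by_cases hu : u = 0
  · rw [hu, zero_mul, h.al_zero, zero_mul]
  by_cases hv : v = 0
  · rw [hv, mul_zero, h.al_zero, mul_zero]
  obtain ⟨w, hw, h1, h2⟩ := h.exists_aux hL v (u * v) hv (mul_ne_zero hu hv)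
  rw [h.al_spec hL (mul_ne_zero hu hv) hw h2, h.al_spec hL hv hw h1,
    h.al_spec hL hu h1 (by rwa [← mul_assoc]), ← mul_assoc]
  have := h.A_ne hw
  have := h.A_ne h1
  field_simp

lemma al_eq {x : K} (hx : x ∉ PF K p) : h.al hL x = h.A x := by
  have hx0 := h.ne_left (h.A_rel hx)
  obtain ⟨y, hy⟩ := h.generic hL ![1, x] ![0, h.A x] (by
      intro i; fin_cases i <;> simp [hx0])
  have g0 := hy 0
  have g1 := hy 1
  simp at g0 g1
  rw [h.al_spec hL hx0 g0.1 g1.1]
  have e := h.claim1 g1.1 hx (ind_of_not_mem (h.A_not_mem hx) g1.2).symm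
  rw [mul_div_cancel_left₀ _ hx0] at e
  rw [e]
  have := h.A_ne hx
  have := h.A_ne g1.1
  field_simp

lemma al_div (u : K) {v : K} (hv : v ≠ 0) : h.al hL (u / v) = h.al hL u / h.al hL v := by
  have e := h.al_mul hL (u / v) v
  rw [div_mul_cancel₀ _ hv] at e
  rw [e, mul_div_cancel_right₀ _ (h.ne_right (h.al_rel hL hv))]

lemma rel_sub {u v : K} (hv : v ≠ 0) (huv : u / v ∉ PF K p) :
    R (u - v) (h.al hL u - h.al hL v) := by
  have r := h.mul (h.al_rel hL hv) (h.A_rel' huv)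
  rw [← h.al_eq hL huv, h.al_div hL u hv] at r
  have e1 : v * (u / v - 1) = u - v := by field_simp
  have e2 : h.al hL v * (h.al hL u / h.al hL v - 1) = h.al hL u - h.al hL v := by
    have := h.ne_right (h.al_rel hL hv); field_simp
  rwa [e1, e2] at r

lemma sigma_const : ∃ σ : L, σ ∈ PF L p ∧ σ ≠ 0 ∧
    ∀ x, x ∉ PF K p → h.al hL (x - 1) = σ * (h.A x - 1) := by
  have ex : ∀ x, x ∉ PF K p → ∃ σ : L, σ ∈ PF L p ∧ σ ≠ 0 ∧ h.al hL (x - 1) = σ * (h.A x - 1) :=
    fun x hx => h.ex_mul (h.al_rel hL (h.ne_left (h.A_rel' hx))) (h.A_rel' hx)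
  have key : ∀ {x y : K} {s t : L}, x ∉ PF K p → y ∉ PF K p → h.A y ∉ (PF L p)⟮h.A x⟯ →
      s ∈ PF L p → t ∈ PF L p → h.al hL (x - 1) = s * (h.A x - 1) →
      h.al hL (y - 1) = t * (h.A y - 1) → s = t := by
    intro x y s t hx hy g hs ht e1 e2
    have hi := ind_of_not_mem (h.A_not_mem hx) g
    have hxy : x / y ∉ PF K p :=
      h.not_mem_of_ind (h.A_rel hx) (h.A_rel hy) hi (zero_mem _) (one_mem _) (zero_mem _)
        (by ring) (by ring)
    have hxy' : (x - 1) / (y - 1) ∉ PF K p :=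
      h.not_mem_of_ind (h.A_rel' hx) (h.A_rel' hy) hi (neg_mem (one_mem _)) (one_mem _)
        (neg_mem (one_mem _)) (by ring) (by ring)
    have r1 := h.rel_sub hL (h.ne_left (h.A_rel hy)) hxy
    have r2 := h.rel_sub hL (h.ne_left (h.A_rel' hy)) hxy'
    have e3 : x - 1 - (y - 1) = x - y := by ring
    rw [e3, e1, e2] at r2
    rw [h.al_eq hL hx, h.al_eq hL hy] at r1
    obtain ⟨m, hm, -, e4⟩ := h.ex_mul r2 r1
    obtain ⟨k1, -, -⟩ := hi (t - s) (s - m) (m - t) (sub_mem ht hs) (sub_mem hs hm) (sub_mem hm ht)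
      (by linear_combination e4)
    linear_combination -k1
  obtain ⟨x0, hx0, -⟩ := h.exists_aux hL 1 1 one_ne_zero one_ne_zero
  obtain ⟨σ, hσ, hσ0, e0⟩ := ex x0 hx0
  refine ⟨σ, hσ, hσ0, fun x hx => ?_⟩
  obtain ⟨s, hs, -, e1⟩ := ex x hx
  obtain ⟨y, hy⟩ := h.generic hL ![1, 1] ![h.A x0, h.A x] (by
      intro i; fin_cases i <;> simp)
  have g0 := hy 0
  have g1 := hy 1
  simp at g0 g1
  obtain ⟨t, ht, -, e2⟩ := ex y g0.1
  rw [e1, key hx g0.1 g1.2 hs ht e1 e2, key hx0 g0.1 g0.2 hσ ht e0 e2]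

lemma al_neg_one_and : h.al hL (-1) = -1 ∧
    ∀ x, x ∉ PF K p → h.al hL (x - 1) = h.al hL x - 1 := by
  obtain ⟨σ, hσ, hσ0, e⟩ := h.sigma_const hL
  obtain ⟨x, hx, -⟩ := h.exists_aux hL 1 1 one_ne_zero one_ne_zero
  have hx0 := h.ne_left (h.A_rel hx)
  have hA0 := h.A_ne hx
  have hA1 : h.A x - 1 ≠ 0 := h.ne_right (h.A_rel' hx)
  have hxi : 1 / x ∉ PF K p := fun hh => hx (by simpa using inv_mem hh)
  have hε : h.al hL (-1) = -1 := by
    have e1 := e x hx
    have e2 := e (1 / x) hxi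
    rw [← h.al_eq hL hxi, h.al_div hL 1 hx0, h.al_one, h.al_eq hL hx] at e2
    have e3 : 1 / x - 1 = (-1) * (x - 1) / x := by field_simp; ring
    rw [e3, h.al_div hL _ hx0, h.al_mul, e1, h.al_eq hL hx] at e2
    field_simp at e2
    apply mul_right_cancel₀ hA1
    linear_combination e2
  refine ⟨hε, ?_⟩
  have hy : (-1) * (x - 1) ∉ PF K p := fun hh => hx (by
    have : x = 1 - (-1) * (x - 1) := by ring
    rw [this]; exact sub_mem (one_mem _) hh)
  have e2 := e _ hy
  have e3 : (-1) * (x - 1) - 1 = (-1) * x := by ring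
  rw [← h.al_eq hL hy, e3, h.al_mul, h.al_mul, hε, e x hx, h.al_eq hL hx] at e2
  have e4 : σ ^ 2 - 1 = 0 := by
    by_contra hne
    apply h.A_not_mem hx
    have : h.A x = (σ ^ 2 - σ) / (σ ^ 2 - 1) := by
      field_simp
      linear_combination e2
    rw [this]
    exact div_mem (sub_mem (pow_mem hσ 2) hσ) (sub_mem (pow_mem hσ 2) (one_mem _))
  have e5 : σ = 1 := by
    linear_combination e2 + (1 - h.A x) * e4
  intro z hz
  rw [e z hz, e5, one_mul, h.al_eq hL hz]

lemma al_neg (u : K) : h.al hL (-u) = - h.al hL u := by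
  rw [← neg_one_mul, h.al_mul, (h.al_neg_one_and hL).1, neg_one_mul]

lemma al_add' {u v : K} (hv : v ≠ 0) (huv : u / v ∉ PF K p) :
    h.al hL (u + v) = h.al hL u + h.al hL v := by
  have h1 : -(u / v) ∉ PF K p := fun hh => huv (by simpa using neg_mem hh)
  have e1 : u + v = -(v * (-(u / v) - 1)) := by field_simp; ring
  rw [e1, h.al_neg, h.al_mul, (h.al_neg_one_and hL).2 _ h1, h.al_neg, h.al_div hL u hv]
  have := h.ne_right (h.al_rel hL hv)
  field_simp
  ring

lemma al_add_one (t : K) : h.al hL (t + 1) = h.al hL t + 1 := by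
  by_cases ht : t ∈ PF K p
  · by_cases ht0 : t = 0
    · rw [ht0, zero_add, h.al_zero, h.al_one, zero_add]
    by_cases ht1 : t + 1 = 0
    · have : t = -1 := by linear_combination ht1
      rw [ht1, this, (h.al_neg_one_and hL).1, h.al_zero]; ring
    obtain ⟨x, hx, -⟩ := h.exists_aux hL 1 1 one_ne_zero one_ne_zero
    have a1 : x / (t + 1) ∉ PF K p := fun hh => hx (by
      have : x = x / (t + 1) * (t + 1) := by field_simp
      rw [this]; exact mul_mem hh (add_mem ht (one_mem _)))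
    have a2 : (x + 1) / t ∉ PF K p := fun hh => hx (by
      have : x = (x + 1) / t * t - 1 := by field_simp; ring
      rw [this]; exact sub_mem (mul_mem hh ht) (one_mem _))
    have e1 := h.al_add' hL ht1 a1
    have e2 := h.al_add' hL ht0 a2
    have e3 := h.al_add' hL (u := x) one_ne_zero (by rwa [div_one])
    have e4 : x + 1 + t = x + (t + 1) := by ring
    rw [e4, e1, e3, h.al_one] at e2
    linear_combination e2
  · have := h.al_add' hL (u := t) one_ne_zero (by rwa [div_one])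
    rwa [h.al_one] at this

lemma al_add (u v : K) : h.al hL (u + v) = h.al hL u + h.al hL v := by
  by_cases hv : v = 0
  · rw [hv, add_zero, h.al_zero, add_zero]
  have e1 : u + v = v * (u / v + 1) := by field_simp
  rw [e1, h.al_mul, h.al_add_one, h.al_div hL u hv]
  have := h.ne_right (h.al_rel hL hv)
  field_simp

theorem exists_hom (hL : Big L p) : ∃ α : K →+* L, ∀ u, u ≠ 0 → R u (α u) :=
  ⟨{ toFun := h.al hL
     map_one' := h.al_one hL
     map_mul' := h.al_mul hL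
     map_zero' := h.al_zero hL
     map_add' := h.al_add hL }, fun _ hu => h.al_rel hL hu⟩

end GoodRel

end Crest.Agent.R9
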