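import Crest.Agent.R9.Cls
import Crest.Agent.R9.FG

set_option autoImplicit false

namespace Crest.Agent.R9

open Polynomial IntermediateField Crest.NumberTheoryR.MilnorK

variable {K L : Type*} [Field K] [Field L] {p : ℕ} [hp : Fact p.Prime] [CharP K p] [CharP L p]

lemma not_mem_pow {x : K} (hx : x ∉ PF K p) (j : ℕ) : (x - 1) / x ^ j ∉ PF K p := by
  intro h
  have hx0 : x ≠ 0 := by rintro rfl; exact hx (zero_mem _)
  have hx1 : x - 1 ≠ 0 := by
    intro h; apply hx; rw [sub_eq_zero.1 h]; exact one_mem _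
  obtain ⟨D, hD⟩ := exists_lw_one hx
  have e := (lw_eq_zero_iff (div_ne_zero hx1 (pow_ne_zero j hx0)) D).2 (deriv_PF D h)
  rw [lw_div hx1 (pow_ne_zero j hx0), lw_pow hx0, hD] at e
  unfold lw at e hD
  rw [map_sub, Derivation.map_one_eq_zero, sub_zero] at e
  field_simp at e hD
  rw [hD] at e
  have hj : ((j : K) - 1) ≠ 0 := by
    intro h0
    have : (j : K) = 1 := by linear_combination h0
    rw [this] at e
    apply one_ne_zero (α := K)
    linear_combination e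
  apply hx
  have : x = j / ((j : K) - 1) := by field_simp; linear_combination -e
  rw [this]
  exact div_mem (natCast_mem _ j) (sub_mem (natCast_mem _ j) (one_mem _))

omit [CharP K p] [CharP L p] in
lemma th_sub (Θ : KOne K p ≃ₗ[ZMod p] KOne L p) (a b : KOne K p) : Θ (a - b) = Θ a - Θ b :=
  Θ.toLinearMap.map_sub a b

lemma mod_smul_add {R A : Type*} [Ring R] [AddCommGroup A] [Module R A] (c : R) (a b : A) :
    c • (a + b) = c • a + c • b := smul_add c a b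

lemma mod_smul_sub {R A : Type*} [Ring R] [AddCommGroup A] [Module R A] (c : R) (a b : A) :
    c • (a - b) = c • a - c • b := smul_sub c a b

omit [CharP L p] in
lemma k_smul_add (c : ZMod p) (a b : KOne L p) : c • (a + b) = c • a + c • b :=
  mod_smul_add c a b

omit [CharP L p] in
lemma k_smul_sub (c : ZMod p) (a b : KOne L p) : c • (a - b) = c • a - c • b :=
  mod_smul_sub c a b

omit [CharP L p] in
lemma k_nsmul (n : ℕ) (a : KOne L p) : n • a = (n : ZMod p) • a :=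
  (Nat.cast_smul_eq_nsmul (ZMod p) n a).symm

/-- Steinberg-compatibility in the form used. -/
def StComp (Θ : KOne K p ≃ₗ[ZMod p] KOne L p) : Prop :=
  ∀ f : K, f ≠ 0 → 1 - f ≠ 0 →
    TensorProduct.tmul (ZMod p) (Θ (cl p f)) (Θ (cl p (1 - f))) ∈ steinberg L p

omit [CharP K p] [CharP L p] in
lemma tmul_mem_steinberg {f : K} (hf : f ≠ 0) (hf1 : 1 - f ≠ 0) :
    TensorProduct.tmul (ZMod p) (cl p f) (cl p (1 - f)) ∈ steinberg K p := by
  apply Submodule.subset_span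
  exact ⟨f, hf, hf1, by rw [cl_mk0, cl_mk0]⟩

omit [CharP K p] [CharP L p] in
lemma stComp_of {Θ : KOne K p ≃ₗ[ZMod p] KOne L p} (h : IsCompatible Θ) : StComp Θ := by
  intro f hf hf1
  rw [← h]
  exact ⟨_, tmul_mem_steinberg hf hf1, by simp⟩

omit [CharP K p] [CharP L p] in
lemma stComp_symm_of {Θ : KOne K p ≃ₗ[ZMod p] KOne L p} (h : IsCompatible Θ) :
    StComp Θ.symm := by
  intro f hf hf1
  have h1 := tmul_mem_steinberg (p := p) hf hf1
  rw [← h] at h1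
  obtain ⟨t, ht, e⟩ := h1
  have e2 := congrArg (TensorProduct.map Θ.symm.toLinearMap Θ.symm.toLinearMap) e
  rw [← LinearMap.comp_apply, ← TensorProduct.map_comp] at e2
  simp at e2
  rw [← e2]
  exact ht

lemma StComp.wedge {Θ : KOne K p ≃ₗ[ZMod p] KOne L p} (h : StComp Θ) {u v : K} {u' v' z' : L}
    (hu : u ≠ 0) (hv : v ≠ 0) (huv : u - v ≠ 0) (hu' : u' ≠ 0) (hv' : v' ≠ 0) (hz' : z' ≠ 0)
    (e1 : cl p u' = Θ (cl p u)) (e2 : cl p v' = Θ (cl p v)) (e3 : cl p z' = Θ (cl p (u - v))) :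
    Wedge (u' / v') (z' / v') := by
  apply wedge_of_mem_steinberg (p := p) (div_ne_zero hu' hv') (div_ne_zero hz' hv')
  have e4 : 1 - u / v = -((u - v) / v) := by field_simp; ring
  have h1 := h (u / v) (div_ne_zero hu hv) (by rw [e4]; exact neg_ne_zero.2 (div_ne_zero huv hv))
  rw [e4, cl_neg (div_ne_zero huv hv), cl_div hu hv, cl_div huv hv, th_sub, th_sub,
    ← e1, ← e2, ← e3] at h1
  rwa [cl_div hu' hv', cl_div hz' hv']

lemma StComp.pair {Θ : KOne K p ≃ₗ[ZMod p] KOne L p} (h : StComp Θ) {x y : K} {x' y' : L}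
    (hx : x ∉ PF K p) (hy0 : y ≠ 0) (hx'0 : x' ≠ 0) (hy'0 : y' ≠ 0)
    (ex : cl p x' = Θ (cl p x)) (ey : cl p y' = Θ (cl p y)) (hy' : y' ∉ (PF L p)⟮x'⟯) :
    ∃ c : ZMod p, c ≠ 0 ∧ (∃ w, Norm (Θ (cl p x)) (Θ (cl p (x - 1))) c w) ∧
      (∃ w, Norm (Θ (cl p y)) (Θ (cl p (y - 1))) c w) := by
  have hx0 : x ≠ 0 := by rintro rfl; exact hx (zero_mem _)
  have mem_iff : ∀ {u : K} {u' : L}, u ≠ 0 → u' ≠ 0 → cl p u' = Θ (cl p u) →
      (u ∈ PF K p ↔ u' ∈ PF L p) := by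
    intro u u' hu hu' e
    rw [← cl_eq_zero_iff hu, ← cl_eq_zero_iff hu', e, Θ.map_eq_zero_iff]
  have hx' : x' ∉ PF L p := fun hh => hx ((mem_iff hx0 hx'0 ex).2 hh)
  have hy : y ∉ PF K p := fun hh => hy' (mem_adj_of_mem ((mem_iff hy0 hy'0 ey).1 hh) _)
  have hx1 : x - 1 ≠ 0 := by
    intro h; apply hx; rw [sub_eq_zero.1 h]; exact one_mem _
  have hy1 : y - 1 ≠ 0 := by
    intro h; apply hy; rw [sub_eq_zero.1 h]; exact one_mem _
  have hxy : x - y ≠ 0 := by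
    intro h0
    apply hy'
    rw [sub_eq_zero.1 h0, ← ey, cl_eq_iff hx'0 hy'0] at ex
    have : y' = x' / (x' / y') := by field_simp
    rw [this]
    exact div_mem (mem_adjoin_simple_self _ _) (mem_adj_of_mem ex _)
  obtain ⟨P, hP, eP⟩ := cl_surj (Θ (cl p (x - 1)))
  obtain ⟨Q, hQ, eQ⟩ := cl_surj (Θ (cl p (y - 1)))
  obtain ⟨Z, hZ, eZ⟩ := cl_surj (Θ (cl p (x - y)))
  have e1 : cl p (1 : L) = Θ (cl p (1 : K)) := by rw [cl_one, cl_one, Θ.map_zero]
  have w1 := h.wedge hx0 one_ne_zero hx1 hx'0 one_ne_zero hP ex e1 eP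
  have w2 := h.wedge hy0 one_ne_zero hy1 hy'0 one_ne_zero hQ ey e1 eQ
  rw [div_one, div_one] at w1 w2
  have w3 := h.wedge hx0 hy0 hxy hx'0 hy'0 hZ ex ey eZ
  have e2 : x - 1 - (y - 1) = x - y := by ring
  have w4 := h.wedge hx1 hy1 (by rwa [e2]) hP hQ hZ eP eQ (by rwa [e2])
  have nd : ∀ {x : K} {x' P : L}, x ∉ PF K p → x' ≠ 0 → P ≠ 0 → cl p x' = Θ (cl p x) →
      cl p P = Θ (cl p (x - 1)) → ∀ j : ℕ, P / x' ^ j ∉ PF L p := by
    intro x x' P hx hx'0 hP ex eP j hh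
    have hx0 : x ≠ 0 := by rintro rfl; exact hx (zero_mem _)
    have hx1 : x - 1 ≠ 0 := by
      intro h; apply hx; rw [sub_eq_zero.1 h]; exact one_mem _
    apply not_mem_pow hx j
    refine (mem_iff (div_ne_zero hx1 (pow_ne_zero j hx0)) (div_ne_zero hP (pow_ne_zero j hx'0))
      ?_).2 hh
    rw [cl_div hP (pow_ne_zero j hx'0), cl_div hx1 (pow_ne_zero j hx0), cl_pow hx'0, cl_pow hx0,
      th_sub, eP, ex, k_nsmul, k_nsmul, Θ.map_smul]
  obtain ⟨n, hn, k1, k2⟩ := config hx' hy' hP hQ hZ w1 w2 w3 w4 (nd hx hx'0 hP ex eP)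
    (nd hy hy'0 hQ ey eQ)
  have fin : ∀ {x' P : L} {ξ π : KOne L p}, x' ≠ 0 → P ≠ 0 → cl p x' = ξ → cl p P = π →
      (∃ w : L, w ≠ 0 ∧ w - 1 ≠ 0 ∧ w / x' ^ n ∈ PF L p ∧ (w - 1) / P ^ n ∈ PF L p) →
      ∃ w, Norm ξ π (n : ZMod p) w := by
    rintro x' P ξ π hx' hP rfl rfl ⟨w, h0, h1, h2, h3⟩
    refine ⟨w, h0, h1, ?_, ?_⟩
    · rw [(cl_eq_iff h0 (pow_ne_zero n hx')).2 h2, cl_pow hx']
      exact k_nsmul n _
    · rw [(cl_eq_iff h1 (pow_ne_zero n hP)).2 h3, cl_pow hP]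
      exact k_nsmul n _
  refine ⟨n, ?_, fin hx'0 hP ex eP k1, fin hy'0 hQ ey eQ k2⟩
  intro h0
  apply hn
  rw [ZMod.natCast_eq_zero_iff] at h0
  exact (CharP.cast_eq_zero_iff L p n).2 h0

lemma StComp.const {Θ : KOne K p ≃ₗ[ZMod p] KOne L p} (h : StComp Θ) (hK : Big K p)
    (hL : Big L p) :
    ∃ c : ZMod p, c ≠ 0 ∧ ∀ x, x ∉ PF K p → ∃ w, Norm (Θ (cl p x)) (Θ (cl p (x - 1))) c w := by
  have key : ∀ x1 x2 : K, x1 ∉ PF K p → x2 ∉ PF K p → ∃ c : ZMod p, c ≠ 0 ∧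
      (∃ w, Norm (Θ (cl p x1)) (Θ (cl p (x1 - 1))) c w) ∧
      (∃ w, Norm (Θ (cl p x2)) (Θ (cl p (x2 - 1))) c w) := by
    intro x1 x2 h1 h2
    obtain ⟨x1', h1', e1⟩ := cl_surj (Θ (cl p x1))
    obtain ⟨x2', h2', e2⟩ := cl_surj (Θ (cl p x2))
    obtain ⟨Y, hY⟩ := hL.generic ![1, 1] ![x1', x2'] (by intro i; fin_cases i <;> simp)
    have g1 := hY 0
    have g2 := hY 1
    simp at g1 g2
    have hY0 : Y ≠ 0 := by rintro rfl; exact g1 (zero_mem _)
    obtain ⟨y, hy0, ey⟩ := cl_surj (Θ.symm (cl p Y))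
    have ey' : cl p Y = Θ (cl p y) := by rw [ey]; simp
    obtain ⟨c1, hc1, k1, w1, k1'⟩ := h.pair h1 hy0 h1' hY0 e1 ey' g1
    obtain ⟨c2, hc2, k2, w2, k2'⟩ := h.pair h2 hy0 h2' hY0 e2 ey' g2
    have hne : Θ (cl p y) ≠ 0 := by
      rw [← ey', Ne, cl_eq_zero_iff hY0]
      exact fun hh => g1 (mem_adj_of_mem hh _)
    have := (Norm.unique hne k1' k2' hc1 hc2).2
    exact ⟨c1, hc1, k1, this ▸ k2⟩
  obtain ⟨x0, hx0⟩ := hK.exists_not_mem
  obtain ⟨c, hc, ⟨w0, k0⟩, -⟩ := key x0 x0 hx0 hx0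
  refine ⟨c, hc, fun x hx => ?_⟩
  obtain ⟨c', hc', ⟨w1, k1⟩, k2⟩ := key x0 x hx0 hx
  have hne : Θ (cl p x0) ≠ 0 := by
    have hx00 : x0 ≠ 0 := by rintro rfl; exact hx0 (zero_mem _)
    rw [Ne, Θ.map_eq_zero_iff, cl_eq_zero_iff hx00]
    exact hx0
  have := (Norm.unique hne k0 k1 hc hc').2
  rw [this]; exact k2

theorem StComp.exists_hom {Θ : KOne K p ≃ₗ[ZMod p] KOne L p} (h : StComp Θ) (hK : Big K p)
    (hL : Big L p) :
    ∃ (α : K →+* L) (c : ZMod p), c ≠ 0 ∧ ∀ u, u ≠ 0 → cl p (α u) = c • Θ (cl p u) := by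
  obtain ⟨c, hc, hn⟩ := h.const hK hL
  have hR : GoodRel p (fun (u : K) (v : L) => u ≠ 0 ∧ v ≠ 0 ∧ cl p v = c • Θ (cl p u)) :=
    { ne_left := fun h => h.1
      ne_right := fun h => h.2.1
      ex_right := fun u hu => by
        obtain ⟨v, hv, e⟩ := cl_surj (c • Θ (cl p u))
        exact ⟨v, hu, hv, e⟩
      ex_left := fun v hv => by
        obtain ⟨u, hu, e⟩ := cl_surj (Θ.symm (c⁻¹ • cl p v))
        refine ⟨u, hu, hv, ?_⟩
        rw [e, LinearEquiv.apply_symm_apply, smul_smul, mul_inv_cancel₀ hc, one_smul]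
      mul := by
        rintro u v u' v' ⟨h1, h2, h3⟩ ⟨h4, h5, h6⟩
        refine ⟨mul_ne_zero h1 h4, mul_ne_zero h2 h5, ?_⟩
        rw [cl_mul h2 h5, cl_mul h1 h4, Θ.map_add, k_smul_add, h3, h6]
      div := by
        rintro u v u' v' ⟨h1, h2, h3⟩ ⟨h4, h5, h6⟩
        refine ⟨div_ne_zero h1 h4, div_ne_zero h2 h5, ?_⟩
        rw [cl_div h2 h5, cl_div h1 h4, th_sub, k_smul_sub, h3, h6]
      mem_iff := by
        rintro u v ⟨h1, h2, h3⟩
        rw [← cl_eq_zero_iff h1, ← cl_eq_zero_iff h2, h3, smul_eq_zero_iff_right hc,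
          Θ.map_eq_zero_iff]
      norm := by
        intro x hx
        obtain ⟨w, h0, h1, h2, h3⟩ := hn x hx
        have hx0 : x ≠ 0 := by rintro rfl; exact hx (zero_mem _)
        have hx1 : x - 1 ≠ 0 := by
          intro h; apply hx; rw [sub_eq_zero.1 h]; exact one_mem _
        exact ⟨w, ⟨hx0, h0, h2⟩, ⟨hx1, h1, h3⟩⟩ }
  obtain ⟨α, hα⟩ := hR.exists_hom hL
  exact ⟨α, c, hc, fun u hu => (hα u hu).2.2⟩

theorem main (k : Subfield K) (l : Subfield L)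
    [IsAlgClosed k] [IsAlgClosed l]
    (hK : ∃ s : Finset K, Subfield.closure ((k : Set K) ∪ (s : Set K)) = ⊤)
    (hL : ∃ s : Finset L, Subfield.closure ((l : Set L) ∪ (s : Set L)) = ⊤)
    (hK2 : 2 ≤ Algebra.trdeg k K) (hL2 : 2 ≤ Algebra.trdeg l L)
    (Θ : KOne K p ≃ₗ[ZMod p] KOne L p) (hΘ : IsCompatible Θ) :
    ∃! α : K ≃+* L, k.map α.toRingHom = l ∧
      ∃ c : ZMod p, c ≠ 0 ∧ ∀ u : Kˣ,
        Θ (cls K p u) = c • cls L p (Units.map α.toRingHom.toMonoidHom u) := by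
  have bK : Big K p := big_of_trdeg k hK hK2
  have bL : Big L p := big_of_trdeg l hL hL2
  obtain ⟨α, c, hc, hα⟩ := (stComp_of hΘ).exists_hom bK bL
  obtain ⟨β, d, hd, hβ⟩ := (stComp_symm_of hΘ).exists_hom bL bK
  have left : ∀ (α : K →+* L) (c : ZMod p), c ≠ 0 →
      (∀ u, u ≠ 0 → cl p (α u) = c • Θ (cl p u)) → ∀ u, β (α u) = u := by
    intro α c hc hα u
    refine rigid bK.exists_not_mem (β.comp α) (mul_ne_zero hd hc) ?_ u
    intro u hu
    rw [RingHom.comp_apply, hβ _ ((map_ne_zero α).2 hu), hα u hu, Θ.symm.map_smul,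
      LinearEquiv.symm_apply_apply, smul_smul]
  have right : ∀ v, α (β v) = v := by
    intro v
    refine rigid bL.exists_not_mem (α.comp β) (mul_ne_zero hc hd) ?_ v
    intro u hu
    rw [RingHom.comp_apply, hα _ ((map_ne_zero β).2 hu), hβ u hu, Θ.map_smul,
      LinearEquiv.apply_symm_apply, smul_smul]
  let e : K ≃+* L :=
    { toFun := α
      invFun := β
      left_inv := left α c hc hα
      right_inv := right
      map_mul' := α.map_mul
      map_add' := α.map_add }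
  refine ⟨e, ⟨?_, c⁻¹, inv_ne_zero hc, ?_⟩, ?_⟩
  · ext v
    rw [Subfield.mem_map]
    constructor
    · rintro ⟨t, ht, rfl⟩
      rw [mem_iff_roots (p := p) k hK] at ht
      rw [mem_iff_roots (p := p) l hL]
      intro n
      obtain ⟨s, hs⟩ := ht n
      exact ⟨e.toRingHom s, by rw [← map_pow, hs]⟩
    · intro hv
      refine ⟨β v, ?_, right v⟩
      rw [mem_iff_roots (p := p) l hL] at hv
      rw [mem_iff_roots (p := p) k hK]
      intro n
      obtain ⟨s, hs⟩ := hv n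
      exact ⟨β s, by rw [← map_pow, hs]⟩
  · intro u
    rw [cls_eq_cl, cls_eq_cl]
    change _ = c⁻¹ • cl p (α u)
    rw [hα u u.ne_zero, smul_smul, inv_mul_cancel₀ hc, one_smul]
  · rintro α' ⟨-, c', hc', h'⟩
    ext u
    have := left α'.toRingHom c'⁻¹ (inv_ne_zero hc') (by
      intro u hu
      have := h' (Units.mk0 u hu)
      rw [cls_eq_cl, cls_eq_cl] at this
      change Θ (cl p u) = c' • cl p (α'.toRingHom u) at this
      rw [this, smul_smul, inv_mul_cancel₀ hc', one_smul]) u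
    change α' u = α u
    rw [← right (α' u)]
    exact congrArg α this

end Crest.Agent.R9
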